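import Vale.Agent.H40.KTV.GDefs

/-!
Row R5a of the simple-graph split: the disjoint-pair inequality and `K ≤ L`, from the local
inequality and the Johnson surplus inequality taken as hypotheses.
-/

namespace Vale.Agent.H55

open Finset SimpleGraph
open scoped Classical
open Vale.Agent.H90 (dot avgRel)
open Vale.Agent.H40.KTV

variable {V : Type} [Fintype V]

theorem sum4_swap (F : V → V → V → V → ℝ) :
    ∑ u, ∑ v, ∑ w, ∑ z, F w z u v = ∑ u, ∑ v, ∑ w, ∑ z, F u v w z := by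
  calc ∑ u, ∑ v, ∑ w, ∑ z, F w z u v
      = ∑ u, ∑ w, ∑ v, ∑ z, F w z u v := Finset.sum_congr rfl fun u _ => Finset.sum_comm
    _ = ∑ w, ∑ u, ∑ v, ∑ z, F w z u v := Finset.sum_comm
    _ = ∑ w, ∑ u, ∑ z, ∑ v, F w z u v :=
        Finset.sum_congr rfl fun w _ => Finset.sum_congr rfl fun u _ => Finset.sum_comm
    _ = ∑ w, ∑ z, ∑ u, ∑ v, F w z u v := Finset.sum_congr rfl fun w _ => Finset.sum_comm

omit [Fintype V] in
theorem dist4_swap (u v w z : V) : Dist4 u v w z ↔ Dist4 w z u v := by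
  unfold Dist4
  constructor
  · rintro ⟨h1, h2, h3, h4, h5, h6⟩
    exact ⟨h6, h2.symm, h4.symm, h3.symm, h5.symm, h1⟩
  · rintro ⟨h1, h2, h3, h4, h5, h6⟩
    exact ⟨h6, h2.symm, h4.symm, h3.symm, h5.symm, h1⟩

theorem dp_of
    (hloc : ∀ (u v w z : V), Dist4 u v w z → ∀ f : SimpleGraph V → ℝ,
      (1 / 2 : ℝ) * DT u v w z f - XT u v w z f - XT w z u v f ≤ 2 * dot (QP u v f) (QP w z f))
    (hjs : ∀ (u v : V), u ≠ v → ∀ f : SimpleGraph V → ℝ,
      (∑ w, ∑ z, (if Dist4 u v w z then XT u v w z f else 0)) + 2 * dot (QP u v f) (QP u v f)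
        ≤ (1 / 4 : ℝ) * ∑ w, ∑ z, (if Dist4 u v w z then DT u v w z f else 0))
    (f : SimpleGraph V → ℝ) :
    2 * ∑ u, ∑ v, (if u ≠ v then dot (QP u v f) (QP u v f) else 0)
      ≤ ∑ u, ∑ v, ∑ w, ∑ z, (if Dist4 u v w z then dot (QP u v f) (QP w z f) else 0) := by
  have hB' : ∑ u, ∑ v, ∑ w, ∑ z, (if Dist4 u v w z then XT w z u v f else 0) =
      ∑ u, ∑ v, ∑ w, ∑ z, (if Dist4 u v w z then XT u v w z f else 0) := by
    rw [← sum4_swap (fun u v w z => if Dist4 u v w z then XT u v w z f else 0)]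
    refine sum_congr rfl fun u _ => sum_congr rfl fun v _ => sum_congr rfl fun w _ =>
      sum_congr rfl fun z _ => ?_
    simp only [dist4_swap u v w z]
  have hA : ∑ u, ∑ v, ∑ w, ∑ z, ((1 / 2 : ℝ) * (if Dist4 u v w z then DT u v w z f else 0) -
      (if Dist4 u v w z then XT u v w z f else 0) -
      (if Dist4 u v w z then XT w z u v f else 0)) ≤
      ∑ u, ∑ v, ∑ w, ∑ z, 2 * (if Dist4 u v w z then dot (QP u v f) (QP w z f) else 0) := by
    refine sum_le_sum fun u _ => sum_le_sum fun v _ => sum_le_sum fun w _ =>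
      sum_le_sum fun z _ => ?_
    by_cases h : Dist4 u v w z
    · simp only [if_pos h]
      exact hloc u v w z h f
    · simp [if_neg h]
  simp only [Finset.sum_sub_distrib, ← Finset.mul_sum] at hA
  rw [hB'] at hA
  have hB : ∑ u, ∑ v, ((∑ w, ∑ z, (if Dist4 u v w z then XT u v w z f else 0)) +
      2 * (if u ≠ v then dot (QP u v f) (QP u v f) else 0)) ≤
      ∑ u, ∑ v, (1 / 4 : ℝ) * ∑ w, ∑ z, (if Dist4 u v w z then DT u v w z f else 0) := by
    refine sum_le_sum fun u _ => sum_le_sum fun v _ => ?_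
    by_cases h : u = v
    · subst h
      simp [Dist4]
    · rw [if_pos h]
      exact hjs u v h f
  simp only [Finset.sum_add_distrib, ← Finset.mul_sum] at hB
  linarith

theorem XT_nonneg (u v w z : V) (f : SimpleGraph V → ℝ) : 0 ≤ XT u v w z f := by
  unfold XT
  refine Finset.sum_nonneg fun G _ => ?_
  split_ifs
  · positivity
  · exact le_rfl

/-- the pair `x, y` joins the two sides `{a, b}` and `{c, d}` -/
def Opp (a b c d x y : V) : Prop :=
  ((x = a ∨ x = b) ∧ (y = c ∨ y = d)) ∨ ((x = c ∨ x = d) ∧ (y = a ∨ y = b))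

omit [Fintype V] in
theorem ne_of_not_opp {a b c d x y : V} (h : ¬ Opp a b c d x y) :
    s(x, y) ≠ s(a, c) ∧ s(x, y) ≠ s(a, d) ∧ s(x, y) ≠ s(b, c) ∧ s(x, y) ≠ s(b, d) ∧
      s(x, y) ≠ s(c, a) ∧ s(x, y) ≠ s(d, a) ∧ s(x, y) ≠ s(c, b) ∧ s(x, y) ≠ s(d, b) := by
  unfold Opp at h
  simp only [ne_eq, Sym2.eq_iff]
  tauto

omit [Fintype V] in
theorem T_adj_of_not_opp (a b c d : V) (G : SimpleGraph V) (x y : V)
    (h : ¬ Opp a b c d x y) : (T a b c d G).Adj x y ↔ G.Adj x y := by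
  obtain ⟨h1, h2, h3, h4, h5, h6, h7, h8⟩ := ne_of_not_opp h
  unfold T
  split_ifs
  · exact Vale.Agent.H12.Switch.swap_adj_other G a c d b x y ⟨h1, h8, h2, h7⟩
  · exact Vale.Agent.H12.Switch.swap_adj_other G a d c b x y ⟨h2, h7, h1, h8⟩
  · exact Iff.rfl

omit [Fintype V] in
theorem T_adj_block (u v w z : V) (hD : Dist4 u v w z) (G : SimpleGraph V)
    (hT : T u v w z G ≠ G) :
    ¬ ((T u v w z G).Adj u w ↔ G.Adj u w) ∧ ¬ ((T u v w z G).Adj u z ↔ G.Adj u z) ∧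
      ¬ ((T u v w z G).Adj v w ↔ G.Adj v w) := by
  obtain ⟨huv, huw, huz, hvw, hvz, hwz⟩ := hD
  have huv' := huv.symm
  have huw' := huw.symm
  have huz' := huz.symm
  have hvw' := hvw.symm
  have hvz' := hvz.symm
  have hwz' := hwz.symm
  unfold T at hT ⊢
  split_ifs at hT ⊢ with h1 h2
  · obtain ⟨a1, a2, a3, a4⟩ := h1
    refine ⟨?_, ?_, ?_⟩ <;> simp [Vale.Agent.H12.Switch.swap_adj, *]
  · obtain ⟨a1, a2, a3, a4⟩ := h2
    refine ⟨?_, ?_, ?_⟩ <;> simp [Vale.Agent.H12.Switch.swap_adj, *]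
  · exact absurd rfl hT

omit [Fintype V] in
theorem T_isSwitch (u v w z : V) (h : Dist4 u v w z) (G : SimpleGraph V)
    (hT : T u v w z G ≠ G) : Vale.Agent.H12.Switch.IsSwitch G (T u v w z G) := by
  obtain ⟨huv, huw, huz, hvw, hvz, hwz⟩ := h
  unfold T at hT ⊢
  split_ifs at hT ⊢ with h1 h2
  · exact ⟨u, w, z, v, huz, hvw.symm, h1.1, h1.2.1.symm, h1.2.2.1,
      fun h' => h1.2.2.2 h'.symm, rfl⟩
  · exact ⟨u, z, w, v, huw, hvz.symm, h2.1, h2.2.1.symm, h2.2.2.1,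
      fun h' => h2.2.2.2 h'.symm, rfl⟩
  · exact absurd rfl hT

omit [Fintype V] in
/-- Two tuples with the same nontrivial switch differ by one of the eight symmetries. -/
theorem tuple_mem (a b c d u v w z : V) (G : SimpleGraph V) (h0 : Dist4 a b c d)
    (h : Dist4 u v w z) (hT : T u v w z G ≠ G) (heq : T u v w z G = T a b c d G) :
    (((u = a ∧ v = b) ∨ (u = b ∧ v = a)) ∧ ((w = c ∧ z = d) ∨ (w = d ∧ z = c))) ∨
      (((u = c ∧ v = d) ∨ (u = d ∧ v = c)) ∧ ((w = a ∧ z = b) ∨ (w = b ∧ z = a))) := by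
  obtain ⟨b1, b2, b3⟩ := T_adj_block u v w z h G hT
  have o1 : Opp a b c d u w := by
    by_contra hc
    exact b1 (by rw [heq]; exact T_adj_of_not_opp a b c d G u w hc)
  have o2 : Opp a b c d u z := by
    by_contra hc
    exact b2 (by rw [heq]; exact T_adj_of_not_opp a b c d G u z hc)
  have o3 : Opp a b c d v w := by
    by_contra hc
    exact b3 (by rw [heq]; exact T_adj_of_not_opp a b c d G v w hc)
  unfold Opp at o1 o2 o3
  unfold Dist4 at h0 h
  grind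

/-- the tuples whose switch takes `G` to `G'` -/
noncomputable def Fib (G G' : SimpleGraph V) : Finset (V × V × V × V) :=
  univ.filter fun t => Dist4 t.1 t.2.1 t.2.2.1 t.2.2.2 ∧ T t.1 t.2.1 t.2.2.1 t.2.2.2 G = G'

theorem card_fib_le (G G' : SimpleGraph V) (hne : G' ≠ G) : (Fib G G').card ≤ 8 := by
  rcases (Fib G G').eq_empty_or_nonempty with h | ⟨⟨a, b, c, d⟩, h0⟩
  · rw [h]; simp
  · have h0' := (Finset.mem_filter.mp h0).2
    have hsub : Fib G G' ⊆ ([(a, b, c, d), (a, b, d, c), (b, a, c, d), (b, a, d, c),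
        (c, d, a, b), (c, d, b, a), (d, c, a, b), (d, c, b, a)] : List (V × V × V × V)).toFinset := by
      rintro ⟨u, v, w, z⟩ ht
      have ht' := (Finset.mem_filter.mp ht).2
      have hT : T u v w z G ≠ G := by rw [ht'.2]; exact hne
      have := tuple_mem a b c d u v w z G h0'.1 ht'.1 hT (by rw [ht'.2, h0'.2])
      rcases this with ⟨⟨rfl, rfl⟩ | ⟨rfl, rfl⟩, ⟨rfl, rfl⟩ | ⟨rfl, rfl⟩⟩ |
        ⟨⟨rfl, rfl⟩ | ⟨rfl, rfl⟩, ⟨rfl, rfl⟩ | ⟨rfl, rfl⟩⟩ <;> simp
    exact (Finset.card_le_card hsub).trans ((List.toFinset_card_le _).trans (by simp))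

theorem switch_count (f : SimpleGraph V → ℝ) (G : SimpleGraph V) :
    ∑ t : V × V × V × V, (if Dist4 t.1 t.2.1 t.2.2.1 t.2.2.2 then
        (f G - f (T t.1 t.2.1 t.2.2.1 t.2.2.2 G)) ^ 2 else 0)
      ≤ 8 * ∑ G' : SimpleGraph V,
          (if Vale.Agent.H12.Switch.IsSwitch G G' then (f G - f G') ^ 2 else 0) := by
  have h1 : ∀ t : V × V × V × V, (if Dist4 t.1 t.2.1 t.2.2.1 t.2.2.2 then
      (f G - f (T t.1 t.2.1 t.2.2.1 t.2.2.2 G)) ^ 2 else 0) =
      ∑ G' : SimpleGraph V, (if Dist4 t.1 t.2.1 t.2.2.1 t.2.2.2 ∧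
        T t.1 t.2.1 t.2.2.1 t.2.2.2 G = G' then (f G - f G') ^ 2 else 0) := by
    intro t
    by_cases hD : Dist4 t.1 t.2.1 t.2.2.1 t.2.2.2
    · simp [hD]
    · simp [hD]
  rw [Finset.sum_congr rfl (fun t _ => h1 t), Finset.sum_comm, Finset.mul_sum]
  refine Finset.sum_le_sum fun G' _ => ?_
  have h2 : ∑ t : V × V × V × V, (if Dist4 t.1 t.2.1 t.2.2.1 t.2.2.2 ∧
      T t.1 t.2.1 t.2.2.1 t.2.2.2 G = G' then (f G - f G') ^ 2 else 0) =
      ((Fib G G').card : ℝ) * (f G - f G') ^ 2 := by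
    rw [← Finset.sum_filter, Finset.sum_const, nsmul_eq_mul]
    rfl
  have hnn : (0 : ℝ) ≤ 8 * (if Vale.Agent.H12.Switch.IsSwitch G G' then (f G - f G') ^ 2 else 0) := by
    split_ifs
    · positivity
    · simp
  rw [h2]
  by_cases hne : G' = G
  · subst hne
    simp
  · rcases (Fib G G').eq_empty_or_nonempty with h | ⟨⟨a, b, c, d⟩, h0⟩
    · rw [h, Finset.card_empty, Nat.cast_zero, zero_mul]
      exact hnn
    · have h0' := (Finset.mem_filter.mp h0).2
      have hsw : Vale.Agent.H12.Switch.IsSwitch G G' := by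
        have := T_isSwitch a b c d h0'.1 G (by rw [h0'.2]; exact hne)
        rwa [h0'.2] at this
      rw [if_pos hsw]
      have hc : ((Fib G G').card : ℝ) ≤ 8 := by exact_mod_cast card_fib_le G G' hne
      exact mul_le_mul_of_nonneg_right hc (sq_nonneg _)

theorem k_le_l_of
    (hjs : ∀ (u v : V), u ≠ v → ∀ f : SimpleGraph V → ℝ,
      (∑ w, ∑ z, (if Dist4 u v w z then XT u v w z f else 0)) + 2 * dot (QP u v f) (QP u v f)
        ≤ (1 / 4 : ℝ) * ∑ w, ∑ z, (if Dist4 u v w z then DT u v w z f else 0))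
    (f : SimpleGraph V → ℝ) :
    ∑ u, ∑ v, (if u ≠ v then dot (QP u v f) (QP u v f) else 0)
      ≤ ∑ G : SimpleGraph V, ∑ G' : SimpleGraph V,
          (if Vale.Agent.H12.Switch.IsSwitch G G' then (f G - f G') ^ 2 else 0) := by
  have h1 : ∑ u, ∑ v, 2 * (if u ≠ v then dot (QP u v f) (QP u v f) else 0) ≤
      ∑ u, ∑ v, (1 / 4 : ℝ) * ∑ w, ∑ z, (if Dist4 u v w z then DT u v w z f else 0) := by
    refine sum_le_sum fun u _ => sum_le_sum fun v _ => ?_
    by_cases h : u = v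
    · subst h
      simp [Dist4]
    · rw [if_pos h]
      have h2 := hjs u v h f
      have h3 : 0 ≤ ∑ w, ∑ z, (if Dist4 u v w z then XT u v w z f else 0) := by
        refine Finset.sum_nonneg fun w _ => Finset.sum_nonneg fun z _ => ?_
        split_ifs
        · exact XT_nonneg _ _ _ _ _
        · exact le_rfl
      linarith
  simp only [← Finset.mul_sum] at h1
  have h4 : ∑ u, ∑ v, ∑ w, ∑ z, (if Dist4 u v w z then DT u v w z f else 0) =
      ∑ G : SimpleGraph V, ∑ t : V × V × V × V, (if Dist4 t.1 t.2.1 t.2.2.1 t.2.2.2 then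
        (f G - f (T t.1 t.2.1 t.2.2.1 t.2.2.2 G)) ^ 2 else 0) := by
    have h4a : ∑ G : SimpleGraph V, ∑ t : V × V × V × V,
        (if Dist4 t.1 t.2.1 t.2.2.1 t.2.2.2 then
          (f G - f (T t.1 t.2.1 t.2.2.1 t.2.2.2 G)) ^ 2 else 0) =
        ∑ t : V × V × V × V, ∑ G : SimpleGraph V,
        (if Dist4 t.1 t.2.1 t.2.2.1 t.2.2.2 then
          (f G - f (T t.1 t.2.1 t.2.2.1 t.2.2.2 G)) ^ 2 else 0) := Finset.sum_comm
    rw [h4a]
    simp only [Fintype.sum_prod_type]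
    refine sum_congr rfl fun u _ => sum_congr rfl fun v _ => sum_congr rfl fun w _ =>
      sum_congr rfl fun z _ => ?_
    split_ifs
    · rfl
    · simp
  have h5 : ∑ G : SimpleGraph V, ∑ t : V × V × V × V,
      (if Dist4 t.1 t.2.1 t.2.2.1 t.2.2.2 then
        (f G - f (T t.1 t.2.1 t.2.2.1 t.2.2.2 G)) ^ 2 else 0) ≤
      ∑ G : SimpleGraph V, 8 * ∑ G' : SimpleGraph V,
        (if Vale.Agent.H12.Switch.IsSwitch G G' then (f G - f G') ^ 2 else 0) :=
    sum_le_sum fun G _ => switch_count f G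
  rw [← Finset.mul_sum] at h5
  linarith

end Vale.Agent.H55
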